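import Vale.Agent.Lib.P199.LocFin

/-!
Subgroups of the unit group of an algebraic division algebra.
-/

namespace Vale.Agent.Lib.P199

open Submodule

universe u

variable (k : Type*) {D : Type u} [Field k] [DivisionRing D] [Algebra k D]

/-- The subalgebra generated by a subgroup of the group of units. -/
def alg (H : Subgroup Dˣ) : Subalgebra k D :=
  Algebra.adjoin k (Units.val '' (H : Set Dˣ))

variable {k}

lemma alg_mono {H K : Subgroup Dˣ} (h : H ≤ K) : alg k H ≤ alg k K :=
  Algebra.adjoin_mono (Set.image_mono h)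

lemma mem_alg {H : Subgroup Dˣ} {u : Dˣ} (h : u ∈ H) : (u : D) ∈ alg k H :=
  Algebra.subset_adjoin ⟨u, h, rfl⟩

lemma alg_le_iff {H : Subgroup Dˣ} {E : Subalgebra k D} :
    alg k H ≤ E ↔ ∀ u ∈ H, (u : D) ∈ E := by
  constructor
  · intro h u hu
    exact h (mem_alg hu)
  · intro h
    apply Algebra.adjoin_le
    rintro _ ⟨u, hu, rfl⟩
    exact h u hu

/-- `alg H` is spanned by `H`. -/
lemma alg_toSubmodule (H : Subgroup Dˣ) :
    Subalgebra.toSubmodule (alg k H) = span k (Units.val '' (H : Set Dˣ)) := by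
  rw [alg, Algebra.adjoin_eq_span]
  congr 1
  apply le_antisymm
  · have : Submonoid.closure (Units.val '' (H : Set Dˣ)) ≤
        (H.toSubmonoid.map (Units.coeHom D)) := by
      rw [Submonoid.closure_le]
      rintro _ ⟨u, hu, rfl⟩
      exact ⟨u, hu, rfl⟩
    intro x hx
    obtain ⟨u, hu, rfl⟩ := this hx
    exact ⟨u, hu, rfl⟩
  · exact Submonoid.subset_closure

lemma conj_mem_alg {N : Subgroup Dˣ} (x : Dˣ) (hx : ∀ n ∈ N, x * n * x⁻¹ ∈ N) :
    ∀ e ∈ alg k N, (x : D) * e * ((x⁻¹ : Dˣ) : D) ∈ alg k N := by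
  intro e he
  induction he using Algebra.adjoin_induction with
  | mem e he =>
    obtain ⟨n, hn, rfl⟩ := he
    have := mem_alg (k := k) (hx n hn)
    simpa using this
  | algebraMap r =>
    rw [← Algebra.commutes, mul_assoc, Units.mul_inv, mul_one]
    exact Subalgebra.algebraMap_mem _ r
  | add a b _ _ ha hb =>
    rw [mul_add, add_mul]
    exact Subalgebra.add_mem _ ha hb
  | mul a b _ _ ha hb =>
    have : (x : D) * (a * b) * ((x⁻¹ : Dˣ) : D) =
        ((x : D) * a * ((x⁻¹ : Dˣ) : D)) * ((x : D) * b * ((x⁻¹ : Dˣ) : D)) := by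
      simp only [mul_assoc, Units.inv_mul_cancel_left]
    rw [this]
    exact Subalgebra.mul_mem _ ha hb

variable [Algebra.IsAlgebraic k D]

lemma isIntegral_all (x : D) : IsIntegral k x :=
  (Algebra.IsAlgebraic.isAlgebraic x).isIntegral

lemma inv_mem_subalgebra {E : Subalgebra k D} {x : D} (hx : x ∈ E) : x⁻¹ ∈ E :=
  (isIntegral_all x).inv_mem hx

/-- The units lying in a subalgebra form a subgroup. -/
def unitsIn (E : Subalgebra k D) : Subgroup Dˣ where
  carrier := {u | (u : D) ∈ E}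
  mul_mem' := by
    intro a b ha hb
    simpa using E.mul_mem ha hb
  one_mem' := by simpa using E.one_mem
  inv_mem' := by
    intro a ha
    have := inv_mem_subalgebra (k := k) ha
    simpa using this

lemma mem_unitsIn {E : Subalgebra k D} {u : Dˣ} : u ∈ unitsIn E ↔ (u : D) ∈ E := Iff.rfl

lemma alg_closure (X : Set Dˣ) :
    alg k (Subgroup.closure X) = Algebra.adjoin k (Units.val '' X) := by
  apply le_antisymm
  · rw [alg_le_iff]
    have : Subgroup.closure X ≤ unitsIn (Algebra.adjoin k (Units.val '' X)) := by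
      rw [Subgroup.closure_le]
      intro u hu
      exact Algebra.subset_adjoin ⟨u, hu, rfl⟩
    exact this
  · exact Algebra.adjoin_mono (Set.image_mono Subgroup.subset_closure)

/-- Adjoining a normalizing unit preserves local finiteness. -/
theorem LocFin.sup_normalizing {N : Subgroup Dˣ} (hN : LocFin (alg k N)) (x : Dˣ)
    (hx : ∀ n ∈ N, x * n * x⁻¹ ∈ N) :
    LocFin (alg k N ⊔ Algebra.adjoin k {(x : D)}) := by
  apply hN.sup_adjoin_singleton _ (isIntegral_all _)
  intro e he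
  have h1 := conj_mem_alg (k := k) x hx e he
  have h2 : (x : D) * e = ((x : D) * e * ((x⁻¹ : Dˣ) : D)) * x := by
    simp [mul_assoc]
  rw [h2]
  exact mul_mem_mul h1 (Algebra.subset_adjoin rfl)

/-- The property used for the induction over elementary amenable groups: extensions by `G`
preserve local finiteness. -/
def ExtGood (k : Type*) (D : Type u) [Field k] [DivisionRing D] [Algebra k D]
    (G : Type u) [Group G] : Prop :=
  ∀ (Γ : Type u) [Group Γ] (φ : Γ →* Dˣ) (ψ : Γ →* G),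
    LocFin (alg k (ψ.ker.map φ)) → LocFin (alg k φ.range)

theorem extGood_of_finite (G : Type u) [Group G] [Finite G] : ExtGood k D G := by
  classical
  intro Γ _ φ ψ hker
  -- coset representatives
  let f : G → Γ := fun g => if h : ∃ γ, ψ γ = g then h.choose else 1
  have hf : ∀ γ, ψ (f (ψ γ)) = ψ γ := by
    intro γ
    have h : ∃ γ', ψ γ' = ψ γ := ⟨γ, rfl⟩
    simp only [f, dif_pos h]
    exact h.choose_spec
  have hfin : (Set.range (fun g : G => ((φ (f g) : Dˣ) : D))).Finite := Set.finite_range _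
  refine hker.of_finite_left hfin.toFinset ?_ ?_
  · intro b hb
    simp only [Set.Finite.coe_toFinset, Set.mem_range] at hb
    obtain ⟨g, rfl⟩ := hb
    exact mem_alg ⟨f g, rfl⟩
  · rw [alg_toSubmodule, span_le]
    rintro _ ⟨u, ⟨γ, rfl⟩, rfl⟩
    have h1 : γ * (f (ψ γ))⁻¹ ∈ ψ.ker := by
      rw [MonoidHom.mem_ker, map_mul, map_inv, hf, mul_inv_cancel]
    have h2 : ((φ γ : Dˣ) : D) = ((φ (γ * (f (ψ γ))⁻¹) : Dˣ) : D) * ((φ (f (ψ γ)) : Dˣ) : D) := by
      rw [← Units.val_mul, ← map_mul, inv_mul_cancel_right]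
    rw [SetLike.mem_coe, h2]
    apply mul_mem_mul
    · exact mem_alg (Subgroup.mem_map_of_mem φ h1)
    · apply subset_span
      simp only [Set.Finite.coe_toFinset, Set.mem_range]
      exact ⟨ψ γ, rfl⟩

theorem extGood_of_comm (G : Type u) [Group G] (hG : ∀ a b : G, a * b = b * a) :
    ExtGood k D G := by
  classical
  intro Γ _ φ ψ hker
  -- the subgroups N_X
  let N : Finset Γ → Subgroup Γ := fun X => (Subgroup.closure (ψ '' (X : Set Γ))).comap ψ
  have hNeq : ∀ X : Finset Γ, N X = Subgroup.closure (X : Set Γ) ⊔ ψ.ker := by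
    intro X
    simp only [N]
    rw [← MonoidHom.map_closure, Subgroup.comap_map_eq]
  have hNnormal : ∀ X γ n, n ∈ N X → γ * n * γ⁻¹ ∈ N X := by
    intro X γ n hn
    simp only [N, Subgroup.mem_comap, map_mul, map_inv] at hn ⊢
    rwa [hG (ψ γ) (ψ n), mul_assoc, mul_inv_cancel, mul_one]
  have hstep : ∀ X : Finset Γ, LocFin (alg k ((N X).map φ)) := by
    intro X
    induction X using Finset.induction_on with
    | empty =>
      have : N ∅ = ψ.ker := by
        simp [N, MonoidHom.comap_bot]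
      rw [this]
      exact hker
    | insert x X _ ih =>
      have h1 : LocFin (alg k ((N X).map φ) ⊔ Algebra.adjoin k {((φ x : Dˣ) : D)}) := by
        apply ih.sup_normalizing
        rintro _ ⟨n, hn, rfl⟩
        refine ⟨x * n * x⁻¹, hNnormal X x n hn, by simp⟩
      apply h1.mono
      set E' := alg k ((N X).map φ) ⊔ Algebra.adjoin k {((φ x : Dˣ) : D)} with hE'
      have hNX : N X ≤ (unitsIn E').comap φ := by
        intro n hn
        rw [Subgroup.mem_comap, mem_unitsIn]
        exact (le_sup_left : _ ≤ E') (mem_alg (Subgroup.mem_map_of_mem φ hn))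
      have hle : N (insert x X) ≤ (unitsIn E').comap φ := by
        rw [hNeq, sup_le_iff, Subgroup.closure_le]
        constructor
        · intro y hy
          simp only [Finset.coe_insert, Set.mem_insert_iff] at hy
          rcases hy with rfl | hy
          · rw [SetLike.mem_coe, Subgroup.mem_comap, mem_unitsIn]
            exact (le_sup_right : _ ≤ E') (Algebra.subset_adjoin rfl)
          · apply hNX
            rw [hNeq]
            exact (le_sup_left : _ ≤ Subgroup.closure (X : Set Γ) ⊔ ψ.ker)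
              (Subgroup.subset_closure hy)
        · refine le_trans ?_ hNX
          rw [hNeq]
          exact le_sup_right
      rw [alg_le_iff]
      rintro _ ⟨γ, hγ, rfl⟩
      exact hle hγ
  intro T hT
  obtain ⟨X₀, hX₀, hTX⟩ := exists_finset_of_subset_adjoin (k := k) T hT
  -- lift X₀ to a finite subset of Γ
  have hlift : ∀ d : D, ∃ γ : Γ, d ∈ X₀ → ((φ γ : Dˣ) : D) = d := by
    intro d
    by_cases hd : d ∈ X₀
    · obtain ⟨u, ⟨γ, rfl⟩, hu⟩ := hX₀ hd
      exact ⟨γ, fun _ => hu⟩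
    · exact ⟨1, fun h => absurd h hd⟩
  choose g hg using hlift
  refine hstep (X₀.image g) T ?_
  intro t ht
  have h2 : Algebra.adjoin k (X₀ : Set D) ≤ alg k ((N (X₀.image g)).map φ) := by
    apply Algebra.adjoin_le
    intro d hd
    rw [← hg d hd]
    apply mem_alg
    apply Subgroup.mem_map_of_mem
    rw [hNeq]
    apply (le_sup_left : _ ≤ Subgroup.closure ((X₀.image g : Finset Γ) : Set Γ) ⊔ ψ.ker)
    apply Subgroup.subset_closure
    simp only [Finset.coe_image]
    exact ⟨d, hd, rfl⟩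
  exact h2 (hTX ht)

omit [Algebra.IsAlgebraic k D] in
theorem ExtGood.of_injective {H G : Type u} [Group H] [Group G] (f : H →* G)
    (hf : Function.Injective f) (hG : ExtGood k D G) : ExtGood k D H := by
  intro Γ _ φ ψ hker
  apply hG Γ φ (f.comp ψ)
  have : (f.comp ψ).ker = ψ.ker := by
    ext γ
    simp only [MonoidHom.mem_ker, MonoidHom.comp_apply]
    exact ⟨fun h => hf (by rw [h, map_one]), fun h => by rw [h, map_one]⟩
  rwa [this]

omit [Algebra.IsAlgebraic k D] in
theorem ExtGood.of_surjective {G Q : Type u} [Group G] [Group Q] (f : G →* Q)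
    (hf : Function.Surjective f) (hG : ExtGood k D G) : ExtGood k D Q := by
  intro Γ _ φ ψ hker
  -- the pullback
  let P : Subgroup (Γ × G) :=
    (ψ.comp (MonoidHom.fst Γ G)).eqLocus (f.comp (MonoidHom.snd Γ G))
  let φ' : P →* Dˣ := (φ.comp (MonoidHom.fst Γ G)).comp P.subtype
  let ψ' : P →* G := (MonoidHom.snd Γ G).comp P.subtype
  have h1 : LocFin (alg k (ψ'.ker.map φ')) := by
    apply hker.mono
    apply alg_mono
    rintro _ ⟨⟨⟨γ, g⟩, hp⟩, hker', rfl⟩
    refine ⟨γ, ?_, rfl⟩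
    have hg : g = 1 := hker'
    have hp' : ψ γ = f g := hp
    rw [SetLike.mem_coe, MonoidHom.mem_ker, hp', hg, map_one]
  have h2 := hG P φ' ψ' h1
  apply h2.mono
  apply alg_mono
  rintro _ ⟨γ, rfl⟩
  obtain ⟨g, hg⟩ := hf (ψ γ)
  exact ⟨⟨⟨γ, g⟩, hg.symm⟩, rfl⟩

omit [Algebra.IsAlgebraic k D] in
theorem ExtGood.of_extension {G Q : Type u} [Group G] [Group Q] (f : G →* Q)
    (hK : ExtGood k D f.ker) (hQ : ExtGood k D Q) : ExtGood k D G := by
  intro Γ _ φ ψ hker
  apply hQ Γ φ (f.comp ψ)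
  let Γ₁ : Subgroup Γ := (f.comp ψ).ker
  let ψ₁ : Γ₁ →* f.ker := (ψ.comp Γ₁.subtype).codRestrict f.ker (fun γ => γ.2)
  let φ₁ : Γ₁ →* Dˣ := φ.comp Γ₁.subtype
  have h1 : LocFin (alg k (ψ₁.ker.map φ₁)) := by
    apply hker.mono
    apply alg_mono
    rintro _ ⟨γ, hγ, rfl⟩
    refine ⟨γ.1, ?_, rfl⟩
    have : ψ₁ γ = 1 := hγ
    have h3 : ((ψ₁ γ : f.ker) : G) = 1 := by rw [this]; rfl
    exact h3
  have h2 := hK Γ₁ φ₁ ψ₁ h1
  apply h2.mono
  apply alg_mono
  rintro _ ⟨γ, hγ, rfl⟩
  exact ⟨⟨γ, hγ⟩, rfl⟩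

omit [Algebra.IsAlgebraic k D] in
theorem ExtGood.of_directed {G : Type u} [Group G] {ι : Type*} (H : ι → Subgroup G)
    (hd : Directed (· ≤ ·) H) (hU : ∀ g, ∃ i, g ∈ H i) (hH : ∀ i, ExtGood k D (H i)) :
    ExtGood k D G := by
  classical
  intro Γ _ φ ψ hker
  have hi : ∀ i, LocFin (alg k (((H i).comap ψ).map φ)) := by
    intro i
    let Γ₁ : Subgroup Γ := (H i).comap ψ
    let ψ₁ : Γ₁ →* H i := (ψ.comp Γ₁.subtype).codRestrict (H i) (fun γ => γ.2)
    let φ₁ : Γ₁ →* Dˣ := φ.comp Γ₁.subtype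
    have h1 : LocFin (alg k (ψ₁.ker.map φ₁)) := by
      apply hker.mono
      apply alg_mono
      rintro _ ⟨γ, hγ, rfl⟩
      refine ⟨γ.1, ?_, rfl⟩
      have : ψ₁ γ = 1 := hγ
      have h3 : ((ψ₁ γ : H i) : G) = 1 := by rw [this]; rfl
      exact h3
    have h2 := hH i Γ₁ φ₁ ψ₁ h1
    apply h2.mono
    apply alg_mono
    rintro _ ⟨γ, hγ, rfl⟩
    exact ⟨⟨γ, hγ⟩, rfl⟩
  intro T hT
  obtain ⟨X₀, hX₀, hTX⟩ := exists_finset_of_subset_adjoin (k := k) T hT
  have hne : Nonempty ι := ⟨(hU 1).choose⟩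
  have hlift : ∀ d : D, ∃ i : ι, d ∈ X₀ → d ∈ alg k (((H i).comap ψ).map φ) := by
    intro d
    by_cases hdm : d ∈ X₀
    · obtain ⟨u, ⟨γ, rfl⟩, hu⟩ := hX₀ hdm
      obtain ⟨i, hi⟩ := hU (ψ γ)
      refine ⟨i, fun _ => ?_⟩
      rw [← hu]
      exact mem_alg (Subgroup.mem_map_of_mem φ hi)
    · exact ⟨hne.some, fun h => absurd h hdm⟩
  choose idx hidx using hlift
  obtain ⟨j, hj⟩ := hd.finset_le (X₀.image idx)
  refine hi j T ?_
  intro t ht
  have h2 : Algebra.adjoin k (X₀ : Set D) ≤ alg k (((H j).comap ψ).map φ) := by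
    apply Algebra.adjoin_le
    intro d hdm
    have h3 : H (idx d) ≤ H j := hj _ (Finset.mem_image_of_mem idx hdm)
    exact alg_mono (Subgroup.map_mono (Subgroup.comap_mono h3)) (hidx d hdm)
  exact h2 (hTX ht)

omit [Algebra.IsAlgebraic k D] in
/-- If extensions by `G` preserve local finiteness, every image of `G` generates a locally
finite subalgebra. -/
theorem ExtGood.locFin_range {G : Type u} [Group G] (hG : ExtGood k D G) (φ : G →* Dˣ) :
    LocFin (alg k φ.range) := by
  apply hG G φ (MonoidHom.id G)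
  apply (locFin_bot (k := k) (A := D)).mono
  rw [alg_le_iff]
  rintro _ ⟨g, hg, rfl⟩
  have : g = 1 := hg
  rw [this, map_one]
  exact Subalgebra.one_mem _

end Vale.Agent.Lib.P199
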