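import Vale.Agent.Lib.P199.LocFin

/-!
Subalgebras generated by solvable chains with respect to the commutator.
-/

namespace Vale.Agent.Lib.P199

open Submodule

variable {k A : Type*} [Field k] [Ring A] [Algebra k A]

/-- If `x` commutes with the generators `X` modulo `adjoin k X`, then `ad x` maps `adjoin k X` into
itself. -/
lemma commutator_mem_adjoin {X : Set A} (x : A)
    (hx : ∀ y ∈ X, x * y - y * x ∈ Algebra.adjoin k X) :
    ∀ e ∈ Algebra.adjoin k X, x * e - e * x ∈ Algebra.adjoin k X := by
  intro e he
  induction he using Algebra.adjoin_induction with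
  | mem y hy => exact hx y hy
  | algebraMap r =>
    rw [Algebra.commutes, sub_self]
    exact Subalgebra.zero_mem _
  | add a b _ _ ha hb =>
    have : x * (a + b) - (a + b) * x = (x * a - a * x) + (x * b - b * x) := by noncomm_ring
    rw [this]
    exact Subalgebra.add_mem _ ha hb
  | mul a b ha' hb' ha hb =>
    have : x * (a * b) - a * b * x = (x * a - a * x) * b + a * (x * b - b * x) := by noncomm_ring
    rw [this]
    exact Subalgebra.add_mem _ (Subalgebra.mul_mem _ ha hb') (Subalgebra.mul_mem _ ha' hb)

/-- One step: adjoining an integral element `x` with `[x, E] ⊆ E`. -/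
theorem LocFin.sup_of_commutator {E : Subalgebra k A} (hE : LocFin E) (x : A)
    (hx : IsIntegral k x) (h : ∀ e ∈ E, x * e - e * x ∈ E) :
    LocFin (E ⊔ Algebra.adjoin k {x}) := by
  apply hE.sup_adjoin_singleton x hx
  intro e he
  have h1 : x * e = e * x + (x * e - e * x) * 1 := by noncomm_ring
  rw [h1]
  apply Submodule.add_mem
  · exact mul_mem_mul he (Algebra.subset_adjoin rfl)
  · exact mul_mem_mul (h e he) (Subalgebra.one_mem _)

/-- Extension step for chains: if `adjoin k Y` is locally finite, `Y ⊆ X`, all elements of `X` are
integral and all commutators of elements of `X` lie in `Y`, then `adjoin k X` is locally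
finite. -/
theorem LocFin.adjoin_of_commutators {X Y : Set A} (hY : LocFin (Algebra.adjoin k Y))
    (hYX : Y ⊆ X) (hint : ∀ x ∈ X, IsIntegral k x)
    (hcomm : ∀ x ∈ X, ∀ y ∈ X, x * y - y * x ∈ Y) : LocFin (Algebra.adjoin k X) := by
  classical
  have hstep : ∀ Z : Finset A, (Z : Set A) ⊆ X → LocFin (Algebra.adjoin k (Y ∪ (Z : Set A))) := by
    intro Z
    induction Z using Finset.induction_on with
    | empty =>
      intro _
      simpa using hY
    | insert x Z _ ih =>
      intro hZ
      have hxX : x ∈ X := hZ (by simp)
      have hZX : (Z : Set A) ⊆ X := fun z hz => hZ (by simp [hz])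
      have h1 := (ih hZX).sup_of_commutator x (hint x hxX) (by
        apply commutator_mem_adjoin
        intro y hy
        apply Algebra.subset_adjoin
        left
        rcases hy with hy | hy
        · exact hcomm x hxX y (hYX hy)
        · exact hcomm x hxX y (hZX hy))
      apply h1.mono
      rw [← Algebra.adjoin_union]
      apply Algebra.adjoin_mono
      intro y hy
      simp only [Finset.coe_insert, Set.mem_union, Set.mem_insert_iff, Set.mem_singleton_iff,
        SetLike.mem_coe] at hy ⊢
      tauto
  intro T hT
  obtain ⟨X₀, hX₀, hTX⟩ := exists_finset_of_subset_adjoin (k := k) T hT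
  refine hstep X₀ hX₀ T ?_
  intro t ht
  exact Algebra.adjoin_mono Set.subset_union_right (hTX ht)

/-- Solvable chains. -/
theorem locFin_adjoin_of_chain (hint : ∀ x : A, IsIntegral k x) (N : ℕ) (L : ℕ → Set A)
    (hanti : ∀ i, L (i + 1) ⊆ L i)
    (hcomm : ∀ i, ∀ x ∈ L i, ∀ y ∈ L i, x * y - y * x ∈ L (i + 1))
    (hN : L N ⊆ {0}) : LocFin (Algebra.adjoin k (L 0)) := by
  have key : ∀ j, j ≤ N → LocFin (Algebra.adjoin k (L (N - j))) := by
    intro j
    induction j with
    | zero =>
      intro _
      apply (locFin_bot (k := k) (A := A)).mono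
      apply Algebra.adjoin_le
      intro x hx
      have : x = 0 := hN hx
      rw [this]
      exact Subalgebra.zero_mem _
    | succ j ih =>
      intro hj
      have h1 : N - j = (N - (j + 1)) + 1 := by omega
      have h2 := ih (by omega)
      rw [h1] at h2
      exact h2.adjoin_of_commutators (hanti _) (fun x _ => hint x) (hcomm _)
  simpa using key N le_rfl

end Vale.Agent.Lib.P199
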