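import Mathlib

/-!
Locally finite-dimensional subalgebras, and their closure under finite left extensions.
-/

namespace Vale.Agent.Lib.P199

open Submodule

variable {k A : Type*} [Field k] [Ring A] [Algebra k A]

/-- Every finite subset of `E` generates a finite-dimensional subalgebra. -/
def LocFin (E : Subalgebra k A) : Prop :=
  ∀ T : Finset A, (T : Set A) ⊆ E → FiniteDimensional k (Algebra.adjoin k (T : Set A))

lemma LocFin.mono {E R : Subalgebra k A} (hR : LocFin R) (h : E ≤ R) : LocFin E :=
  fun T hT => hR T (fun _ hx => h (hT hx))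

lemma adjoin_le_of_mul_mem (M : Submodule k A) (h1 : (1 : A) ∈ M) (T : Set A)
    (hT : ∀ t ∈ T, ∀ m ∈ M, m * t ∈ M) : Subalgebra.toSubmodule (Algebra.adjoin k T) ≤ M := by
  have key : ∀ x ∈ Algebra.adjoin k T, ∀ m ∈ M, m * x ∈ M := by
    intro x hx
    induction hx using Algebra.adjoin_induction with
    | mem x hx => exact hT x hx
    | algebraMap r =>
      intro m hm
      rw [← Algebra.commutes, ← Algebra.smul_def]
      exact M.smul_mem r hm
    | add x y _ _ hx hy =>
      intro m hm
      rw [mul_add]
      exact M.add_mem (hx m hm) (hy m hm)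
    | mul x y _ _ hx hy =>
      intro m hm
      rw [← mul_assoc]
      exact hy _ (hx m hm)
  intro x hx
  simpa using key x hx 1 h1

lemma finiteDimensional_adjoin_of_le (M : Submodule k A) (hM : M.FG) (T : Set A)
    (h : Subalgebra.toSubmodule (Algebra.adjoin k T) ≤ M) :
    FiniteDimensional k (Algebra.adjoin k T) := by
  have : FiniteDimensional k M := Module.Finite.iff_fg.mpr hM
  have : FiniteDimensional k (Subalgebra.toSubmodule (Algebra.adjoin k T)) :=
    Submodule.finiteDimensional_of_le h
  exact this

lemma toSubmodule_mul_self (E : Subalgebra k A) :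
    Subalgebra.toSubmodule E * Subalgebra.toSubmodule E = Subalgebra.toSubmodule E :=
  Subalgebra.isIdempotentElem_toSubmodule E

/-- A subalgebra which is a finitely generated left module over a locally finite subalgebra
is locally finite. -/
theorem LocFin.of_finite_left {E R : Subalgebra k A} (hE : LocFin E) (B : Finset A)
    (hB : (B : Set A) ⊆ R)
    (hR : Subalgebra.toSubmodule R ≤ Subalgebra.toSubmodule E * span k (B : Set A)) :
    LocFin R := by
  classical
  intro T hT
  set B' : Finset A := insert 1 B with hB'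
  have hB'R : (B' : Set A) ⊆ R := by
    intro b hb
    simp only [hB', Finset.coe_insert, Set.mem_insert_iff] at hb
    rcases hb with rfl | hb
    · exact R.one_mem
    · exact hB hb
  have hspan : span k (B : Set A) ≤ span k (B' : Set A) := by
    apply span_mono
    simp [hB']
  -- for each pair choose a finite subset of E
  have hex : ∀ p : A × A, ∃ U : Finset A, (U : Set A) ⊆ E ∧ (p ∈ B' ×ˢ T →
      p.1 * p.2 ∈ span k (U : Set A) * span k (B' : Set A)) := by
    intro p
    by_cases hp : p ∈ B' ×ˢ T
    · have hp' := hp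
      rw [Finset.mem_product] at hp
      have hmem : p.1 * p.2 ∈ Subalgebra.toSubmodule E * span k (B : Set A) :=
        hR (R.mul_mem (hB'R hp.1) (hT hp.2))
      obtain ⟨U, U', hU, hU', hx⟩ := Submodule.mem_span_mul_finite_of_mem_mul hmem
      refine ⟨U, hU, fun _ => ?_⟩
      rw [← span_mul_span] at hx
      have h2 : span k (U' : Set A) ≤ span k (B' : Set A) :=
        (span_le.mpr hU').trans hspan
      exact (mul_le_mul' le_rfl h2) hx
    · exact ⟨∅, by simp, fun h => absurd h hp⟩
  choose U hUE hU using hex
  set V : Finset A := (B' ×ˢ T).biUnion U with hV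
  have hVE : (V : Set A) ⊆ E := by
    intro v hv
    simp only [hV, Finset.coe_biUnion, Set.mem_iUnion] at hv
    obtain ⟨p, _, hv⟩ := hv
    exact hUE p hv
  have hfd : FiniteDimensional k (Algebra.adjoin k (V : Set A)) := hE V hVE
  set E₀ : Submodule k A := Subalgebra.toSubmodule (Algebra.adjoin k (V : Set A)) with hE₀
  have hE₀fg : E₀.FG := by
    have : FiniteDimensional k E₀ := hfd
    exact Module.Finite.iff_fg.mp this
  set M : Submodule k A := E₀ * span k (B' : Set A) with hM
  have hMfg : M.FG := hE₀fg.mul (fg_span B'.finite_toSet)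
  have h1 : (1 : A) ∈ M := by
    have : (1 : A) * 1 ∈ M :=
      mul_mem_mul (Subalgebra.one_mem _) (subset_span (by simp [hB']))
    simpa using this
  have hstep : ∀ t ∈ (T : Set A), ∀ m ∈ M, m * t ∈ M := by
    intro t ht m hm
    have hbt : ∀ b ∈ span k (B' : Set A), b * t ∈ M := by
      intro b hb
      induction hb using span_induction with
      | mem b hb =>
        have hp : (b, t) ∈ B' ×ˢ T := Finset.mem_product.mpr ⟨hb, ht⟩
        have h3 := hU (b, t) hp
        have h4 : span k (U (b, t) : Set A) ≤ E₀ := by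
          rw [span_le]
          intro u hu
          apply Algebra.subset_adjoin
          simp only [hV, Finset.coe_biUnion, Set.mem_iUnion]
          exact ⟨(b, t), hp, hu⟩
        exact (mul_le_mul' h4 le_rfl) h3
      | zero => simp
      | add x y _ _ hx hy => rw [add_mul]; exact M.add_mem hx hy
      | smul c x _ hx => rw [smul_mul_assoc]; exact M.smul_mem c hx
    induction hm using Submodule.mul_induction_on' with
    | mem_mul_mem e he b hb =>
      rw [mul_assoc]
      have h5 : e * (b * t) ∈ E₀ * M := mul_mem_mul he (hbt b hb)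
      rwa [hM, ← mul_assoc, hE₀, toSubmodule_mul_self] at h5
    | add x _ y _ hx hy => rw [add_mul]; exact M.add_mem hx hy
  exact finiteDimensional_adjoin_of_le M hMfg _ (adjoin_le_of_mul_mem M h1 _ hstep)

/-- If `K * E ≤ E * K` then the join of `E` and `K` is `E * K`. -/
lemma sup_toSubmodule_le_mul {E K : Subalgebra k A}
    (h : Subalgebra.toSubmodule K * Subalgebra.toSubmodule E ≤
      Subalgebra.toSubmodule E * Subalgebra.toSubmodule K) :
    Subalgebra.toSubmodule (E ⊔ K) ≤ Subalgebra.toSubmodule E * Subalgebra.toSubmodule K := by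
  have hsup : E ⊔ K = Algebra.adjoin k ((E : Set A) ∪ (K : Set A)) := by
    rw [Algebra.adjoin_union, Algebra.adjoin_eq, Algebra.adjoin_eq]
  rw [hsup]
  apply adjoin_le_of_mul_mem
  · have : (1 : A) * 1 ∈ Subalgebra.toSubmodule E * Subalgebra.toSubmodule K :=
      mul_mem_mul E.one_mem K.one_mem
    simpa using this
  · intro t ht m hm
    rcases ht with ht | ht
    · have h1 : m * t ∈ Subalgebra.toSubmodule E * Subalgebra.toSubmodule K *
          Subalgebra.toSubmodule E := mul_mem_mul hm ht
      rw [mul_assoc] at h1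
      have h2 := (mul_le_mul' (le_refl (Subalgebra.toSubmodule E)) h) h1
      rwa [← mul_assoc, toSubmodule_mul_self] at h2
    · have h1 : m * t ∈ Subalgebra.toSubmodule E * Subalgebra.toSubmodule K *
          Subalgebra.toSubmodule K := mul_mem_mul hm ht
      rwa [mul_assoc, toSubmodule_mul_self] at h1

/-- The join of a locally finite subalgebra `E` with a finite-dimensional subalgebra `K`
such that `K * E ≤ E * K` is locally finite. -/
theorem LocFin.sup_of_mul_le {E K : Subalgebra k A} (hE : LocFin E) [FiniteDimensional k K]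
    (h : Subalgebra.toSubmodule K * Subalgebra.toSubmodule E ≤
      Subalgebra.toSubmodule E * Subalgebra.toSubmodule K) : LocFin (E ⊔ K) := by
  have hfg : (Subalgebra.toSubmodule K).FG := by
    have : FiniteDimensional k (Subalgebra.toSubmodule K) := ‹FiniteDimensional k K›
    exact Module.Finite.iff_fg.mp this
  obtain ⟨B, hB⟩ := hfg
  refine hE.of_finite_left B ?_ ?_
  · intro b hb
    have : b ∈ Subalgebra.toSubmodule K := hB ▸ subset_span hb
    exact (le_sup_right : K ≤ E ⊔ K) this
  · rw [hB]
    exact sup_toSubmodule_le_mul h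

/-- If `x * e ∈ E * k[x]` for all `e ∈ E`, then `k[x] * E ≤ E * k[x]`. -/
lemma adjoin_singleton_mul_le {E : Subalgebra k A} (x : A)
    (h : ∀ e ∈ E, x * e ∈ Subalgebra.toSubmodule E *
      Subalgebra.toSubmodule (Algebra.adjoin k {x})) :
    Subalgebra.toSubmodule (Algebra.adjoin k {x}) * Subalgebra.toSubmodule E ≤
      Subalgebra.toSubmodule E * Subalgebra.toSubmodule (Algebra.adjoin k {x}) := by
  set K := Algebra.adjoin k {x} with hK
  set N := Subalgebra.toSubmodule E * Subalgebra.toSubmodule K with hN
  have key : ∀ y ∈ K, ∀ z ∈ N, y * z ∈ N := by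
    intro y hy
    induction hy using Algebra.adjoin_induction with
    | mem y hy =>
      rw [Set.mem_singleton_iff] at hy
      subst hy
      intro z hz
      induction hz using Submodule.mul_induction_on' with
      | mem_mul_mem e he c hc =>
        rw [← mul_assoc]
        have h1 : y * e * c ∈ N * Subalgebra.toSubmodule K := mul_mem_mul (h e he) hc
        rwa [hN, mul_assoc, toSubmodule_mul_self] at h1
      | add a _ b _ ha hb => rw [mul_add]; exact N.add_mem ha hb
    | algebraMap r =>
      intro z hz
      rw [← Algebra.smul_def]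
      exact N.smul_mem r hz
    | add a b _ _ ha hb =>
      intro z hz
      rw [add_mul]
      exact N.add_mem (ha z hz) (hb z hz)
    | mul a b _ _ ha hb =>
      intro z hz
      rw [mul_assoc]
      exact ha _ (hb z hz)
  rw [Submodule.mul_le]
  intro y hy e he
  apply key y hy
  have : e * 1 ∈ N := mul_mem_mul he K.one_mem
  simpa using this

/-- One step: adjoining an integral element `x` with `x * E ⊆ E * k[x]`. -/
theorem LocFin.sup_adjoin_singleton {E : Subalgebra k A} (hE : LocFin E) (x : A)
    (hx : IsIntegral k x)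
    (h : ∀ e ∈ E, x * e ∈ Subalgebra.toSubmodule E *
      Subalgebra.toSubmodule (Algebra.adjoin k {x})) :
    LocFin (E ⊔ Algebra.adjoin k {x}) := by
  have : FiniteDimensional k (Algebra.adjoin k {x}) := by
    have := hx.fg_adjoin_singleton
    exact Module.Finite.iff_fg.mpr this
  exact hE.sup_of_mul_le (adjoin_singleton_mul_le x h)

lemma locFin_bot : LocFin (⊥ : Subalgebra k A) := by
  intro T hT
  have : Algebra.adjoin k (T : Set A) ≤ ⊥ := Algebra.adjoin_le hT
  have h2 : Algebra.adjoin k (T : Set A) = ⊥ := le_bot_iff.mp this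
  rw [h2]
  infer_instance

/-- An element of `adjoin k X` lies in `adjoin k X₀` for a finite `X₀ ⊆ X`. -/
lemma exists_finset_of_mem_adjoin {X : Set A} {a : A} (ha : a ∈ Algebra.adjoin k X) :
    ∃ X₀ : Finset A, (X₀ : Set A) ⊆ X ∧ a ∈ Algebra.adjoin k (X₀ : Set A) := by
  classical
  induction ha using Algebra.adjoin_induction with
  | mem x hx => exact ⟨{x}, by simpa using hx, Algebra.subset_adjoin (by simp)⟩
  | algebraMap r => exact ⟨∅, by simp, Subalgebra.algebraMap_mem _ r⟩
  | add x y _ _ hx hy =>
    obtain ⟨X₁, h1, h1'⟩ := hx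
    obtain ⟨X₂, h2, h2'⟩ := hy
    refine ⟨X₁ ∪ X₂, by simp [h1, h2], Subalgebra.add_mem _ ?_ ?_⟩
    · exact Algebra.adjoin_mono (by simp) h1'
    · exact Algebra.adjoin_mono (by simp) h2'
  | mul x y _ _ hx hy =>
    obtain ⟨X₁, h1, h1'⟩ := hx
    obtain ⟨X₂, h2, h2'⟩ := hy
    refine ⟨X₁ ∪ X₂, by simp [h1, h2], Subalgebra.mul_mem _ ?_ ?_⟩
    · exact Algebra.adjoin_mono (by simp) h1'
    · exact Algebra.adjoin_mono (by simp) h2'

/-- A finite subset of `adjoin k X` lies in `adjoin k X₀` for a finite `X₀ ⊆ X`. -/
lemma exists_finset_of_subset_adjoin {X : Set A} (T : Finset A)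
    (hT : (T : Set A) ⊆ Algebra.adjoin k X) :
    ∃ X₀ : Finset A, (X₀ : Set A) ⊆ X ∧ (T : Set A) ⊆ Algebra.adjoin k (X₀ : Set A) := by
  classical
  induction T using Finset.induction_on with
  | empty => exact ⟨∅, by simp, by simp⟩
  | insert a T _ ih =>
    have hT' : (T : Set A) ⊆ Algebra.adjoin k X := fun x hx => hT (by simp [hx])
    obtain ⟨X₁, h1, h1'⟩ := ih hT'
    obtain ⟨X₂, h2, h2'⟩ := exists_finset_of_mem_adjoin (k := k) (hT (by simp) : a ∈ _)
    refine ⟨X₁ ∪ X₂, by simp [h1, h2], ?_⟩
    intro x hx
    simp only [Finset.coe_insert, Set.mem_insert_iff] at hx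
    rcases hx with rfl | hx
    · exact Algebra.adjoin_mono (by simp) h2'
    · exact Algebra.adjoin_mono (by simp) (h1' hx)

end Vale.Agent.Lib.P199
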