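import Vale.Agent.Lib.P199.Groups

namespace Vale.Agent.Lib.P199

universe u

variable {k : Type*} {D : Type u} [Field k] [DivisionRing D] [Algebra k D]

lemma map_derivedSeries_commutator (G : Type u) [Group G] (n : ℕ) :
    (derivedSeries (commutator G) n).map (commutator G).subtype = derivedSeries G (n + 1) := by
  induction n with
  | zero =>
    rw [derivedSeries_zero, zero_add, derivedSeries_one, ← MonoidHom.range_eq_map,
      Subgroup.range_subtype]
  | succ n ih =>
    rw [derivedSeries_succ, Subgroup.map_commutator, ih, ← derivedSeries_succ]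

theorem ExtGood.of_normal {G : Type u} [Group G] (N : Subgroup G) [N.Normal]
    (hN : ExtGood k D N) (hQ : ExtGood k D (G ⧸ N)) : ExtGood k D G := by
  apply ExtGood.of_extension (QuotientGroup.mk' N) _ hQ
  have hle : (QuotientGroup.mk' N).ker ≤ N := le_of_eq (QuotientGroup.ker_mk' N)
  exact ExtGood.of_injective (Subgroup.inclusion hle) (Subgroup.inclusion_injective hle) hN

variable [Algebra.IsAlgebraic k D]

theorem extGood_of_derivedSeries (n : ℕ) :
    ∀ (G : Type u) [Group G], derivedSeries G n = ⊥ → ExtGood k D G := by
  induction n with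
  | zero =>
    intro G _ h
    apply extGood_of_comm
    intro a b
    rw [derivedSeries_zero] at h
    have ha : a ∈ (⊥ : Subgroup G) := h ▸ Subgroup.mem_top a
    have hb : b ∈ (⊥ : Subgroup G) := h ▸ Subgroup.mem_top b
    rw [Subgroup.mem_bot] at ha hb
    rw [ha, hb]
  | succ n ih =>
    intro G _ h
    apply ExtGood.of_normal (commutator G)
    · apply ih
      have := map_derivedSeries_commutator G n
      rw [h] at this
      exact (Subgroup.map_eq_bot_iff_of_injective _ (Subgroup.subtype_injective _)).mp this
    · apply extGood_of_comm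
      intro a b
      exact mul_comm (G := Abelianization G) a b

theorem extGood_of_isSolvable (G : Type u) [Group G] [h : Group.IsSolvable G] :
    ExtGood k D G := by
  obtain ⟨n, hn⟩ := h.solvable
  exact extGood_of_derivedSeries n G hn

/-- Final form: finite sets of units. -/
theorem finiteDimensional_adjoin_of_extGood (S : Set D) (hS : S.Finite)
    (h : ExtGood k D (Subgroup.closure {u : Dˣ | (u : D) ∈ S})) :
    FiniteDimensional k (Algebra.adjoin k S) := by
  classical
  have h1 := h.locFin_range (Subgroup.closure {u : Dˣ | (u : D) ∈ S}).subtype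
  rw [Subgroup.range_subtype, alg_closure] at h1
  -- remove zero from S
  have h2 : Algebra.adjoin k S = Algebra.adjoin k (S \ {0}) := by
    apply le_antisymm
    · apply Algebra.adjoin_le
      intro s hs
      by_cases h0 : s = 0
      · rw [h0]; exact Subalgebra.zero_mem _
      · exact Algebra.subset_adjoin ⟨hs, h0⟩
    · exact Algebra.adjoin_mono Set.sdiff_subset
  rw [h2]
  have hfin : (S \ {0}).Finite := hS.subset Set.sdiff_subset
  have h3 := h1 hfin.toFinset (by
    intro s hs
    simp only [Set.Finite.coe_toFinset] at hs
    apply Algebra.subset_adjoin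
    exact ⟨Units.mk0 s hs.2, hs.1, rfl⟩)
  rwa [Set.Finite.coe_toFinset] at h3

end Vale.Agent.Lib.P199
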